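import Vale.Agent.P181.Main
import Vale.Agent.P181.Defs

namespace Vale.Agent.Results.P181.PolyBound

open scoped TensorProduct
open Vale.Agent.P181

universe u

theorem result (a b : ℕ) (hab : a * (a - 1) ^ 2 ≤ 2 * b)
    (V : Type u) [AddCommGroup V] [Module ℂ V] [FiniteDimensional ℂ V] :
    ∃ Ψ : Sym[ℂ]^a (Sym[ℂ]^b V) →ₗ[ℂ] Sym[ℂ]^b (Sym[ℂ]^a V),
      IsFoulkesHowe Ψ ∧ IsGLEquivariant Ψ ∧ Function.Injective Ψ :=
  ⟨howe a b V, howe_tprod, fun g => ⟨symMap b g.toLinearMap, symMap a g.toLinearMap,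
    symMap a (symMap b g.toLinearMap), symMap b (symMap a g.toLinearMap),
    symMap_tprod _, symMap_tprod _, symMap_tprod _, symMap_tprod _,
    fun x => howe_equivariant g.toLinearMap x⟩, howe_injective hab⟩

end Vale.Agent.Results.P181.PolyBound
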